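import Mathlib
import Vale.Agent.P333.Y.Parts
import Vale.Agent.P333.H705.Ycs

set_option linter.all false

/-!
P333, ratio `2`: assembly of the bound for the output (`PartB`) from its parts.
-/

namespace Vale.Agent.P333.H196

open Vale.Agent.P333 Vale.Agent.P333.U Vale.Agent.P333.E Vale.Agent.P333.G Vale.Agent.P333.Y
open Vale.Agent.P333.H705

/-! ### Lifting permutations and groupings -/

theorem perm_lift {α β : Type*} (f : α → β) {l m : List β} (h : l.Perm m) :
    ∀ ts : List α, ts.map f = m → ∃ ts' : List α, ts'.Perm ts ∧ ts'.map f = l := by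
  induction h with
  | nil =>
    intro ts hts
    exact ⟨ts, List.Perm.refl _, hts⟩
  | cons x h ih =>
    intro ts hts
    cases ts with
    | nil => simp at hts
    | cons a ts =>
      rw [List.map_cons, List.cons.injEq] at hts
      obtain ⟨ts', h1, h2⟩ := ih ts hts.2
      exact ⟨a :: ts', h1.cons a, by rw [List.map_cons, h2, hts.1]⟩
  | swap x y l =>
    intro ts hts
    cases ts with
    | nil => simp at hts
    | cons a ts =>
      cases ts with
      | nil => simp at hts
      | cons b ts =>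
        rw [List.map_cons, List.map_cons, List.cons.injEq, List.cons.injEq] at hts
        refine ⟨b :: a :: ts, List.Perm.swap _ _ _, ?_⟩
        rw [List.map_cons, List.map_cons, hts.1, hts.2.1, hts.2.2]
  | trans h1 h2 ih1 ih2 =>
    intro ts hts
    obtain ⟨ts2, h3, h4⟩ := ih2 ts hts
    obtain ⟨ts1, h5, h6⟩ := ih1 ts2 h4
    exact ⟨ts1, h5.trans h3, h6⟩

theorem split_lift {α β : Type*} (f : α → β) : ∀ (Gs : List (List β)) (ts : List α),
    ts.map f = Gs.flatten → ∃ Hs : List (List α), Hs.flatten = ts ∧ Hs.map (List.map f) = Gs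
  | [], ts, h => by
    rw [List.flatten_nil, List.map_eq_nil_iff] at h
    exact ⟨[], by rw [h]; rfl, rfl⟩
  | G :: Gs, ts, h => by
    rw [List.flatten_cons, List.map_eq_append_iff] at h
    obtain ⟨l1, l2, rfl, h1, h2⟩ := h
    obtain ⟨Hs, h3, h4⟩ := split_lift f Gs l2 h2
    exact ⟨l1 :: Hs, by rw [List.flatten_cons, h3], by rw [List.map_cons, h1, h4]⟩

theorem perm_of_mem {α : Type*} {l : List α} (hn : l.Nodup) {t : α} (h : t ∈ l) :
    ∃ R : List α, l.Perm (t :: R) ∧ R.Nodup ∧ (∀ x, x ∈ R ↔ x ∈ l ∧ x ≠ t) := by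
  obtain ⟨a, b, rfl⟩ := List.append_of_mem h
  have hp : (a ++ t :: b).Perm (t :: (a ++ b)) := List.perm_middle
  have hn2 : (t :: (a ++ b)).Nodup := hp.nodup_iff.1 hn
  rw [List.nodup_cons] at hn2
  refine ⟨a ++ b, hp, hn2.2, fun x => ?_⟩
  rw [hp.mem_iff, List.mem_cons]
  constructor
  · intro hx
    refine ⟨Or.inr hx, ?_⟩
    rintro rfl
    exact hn2.1 hx
  · rintro ⟨hx | hx, h2⟩
    · exact absurd hx h2
    · exact hx

/-! ### Items -/

/-- A circle which is not contracted, or a cycle of classes. -/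
abbrev Itm := Cir ⊕ List Cir

/-- The walk of an item. -/
def wk (B : ℕ) (F : List Cir) : Itm → Cir
  | .inl c => c
  | .inr κ => walkY B F κ

/-- The visits of contracted circles. -/
def vis (B : ℕ) (F : List Cir) : Itm → List (Arc × Arc)
  | .inl _ => []
  | .inr κ => visF B F κ

/-- The slack of an item. -/
def sl (B : ℕ) (F : List Cir) (t : Itm) : ℕ := ((vis B F t).map (slk F)).sum

/-- The items of the algorithm. -/
def items (B : ℕ) (L F : List Cir) (P : List ℕ) : List Itm :=
  (L.filter (fun c => !decide (c ∈ F))).map Sum.inl ++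
    (ycs (gmat B F (nodes L F)) (nodes L F) P).map Sum.inr

theorem map_wk_items (B : ℕ) (L F : List Cir) (P : List ℕ) :
    (items B L F P).map (wk B F) = walks0 B L F P := by
  unfold items walks0
  rw [List.map_append, List.map_map, List.map_map]
  congr 1
  exact List.map_id _

section

variable {B : ℕ} {L F : List Cir} {P : List ℕ}

theorem mem_items_inl {c : Cir} : (Sum.inl c : Itm) ∈ items B L F P ↔ c ∈ L ∧ c ∉ F := by
  unfold items
  rw [List.mem_append, List.mem_map, List.mem_map]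
  constructor
  · rintro (⟨d, hd, h⟩ | ⟨d, hd, h⟩)
    · rw [Sum.inl.injEq] at h
      subst h
      rw [List.mem_filter] at hd
      exact ⟨hd.1, by simpa using hd.2⟩
    · cases h
  · rintro ⟨h1, h2⟩
    exact Or.inl ⟨c, List.mem_filter.2 ⟨h1, by simpa using h2⟩, rfl⟩

theorem mem_items_inr {κ : List Cir} : (Sum.inr κ : Itm) ∈ items B L F P ↔
    κ ∈ ycs (gmat B F (nodes L F)) (nodes L F) P := by
  unfold items
  rw [List.mem_append, List.mem_map, List.mem_map]
  constructor
  · rintro (⟨d, hd, h⟩ | ⟨d, hd, h⟩)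
    · cases h
    · rw [Sum.inr.injEq] at h
      rw [← h]
      exact hd
  · intro h
    exact Or.inr ⟨κ, h, rfl⟩

end

section

variable {S : List (List ℕ)} {L F : List Cir} {P : List ℕ}

theorem nodup_flatten_cover (hS : Sfree S) (hL : MinCover S L) : L.flatten.Nodup := by
  rw [hL.perm.nodup_iff]
  exact Sfree.nodup hS

theorem nodup_L (hS : Sfree S) (hL : MinCover S L) : L.Nodup := by
  have h2 := (List.nodup_flatten.1 (nodup_flatten_cover hS hL)).2
  refine List.Pairwise.imp_of_mem ?_ h2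
  rintro a b ha hb hd rfl
  obtain ⟨s, hs⟩ := List.exists_mem_of_ne_nil _ (hL.ne a ha)
  exact hd hs hs

theorem node_eq (hS : Sfree S) (hL : MinCover S L) {n m : Cir} (hn : n ∈ nodes L F)
    (hm : m ∈ nodes L F) {s : List ℕ} (h1 : s ∈ n) (h2 : s ∈ m) : n = m := by
  by_contra hne
  have hflat : (nodes L F).flatten.Nodup := by
    rw [nodes_flatten]
    exact nodup_flatten_cover hS hL
  have h3 := (List.nodup_flatten.1 hflat).2
  have : Std.Symm (List.Disjoint : Cir → Cir → Prop) := ⟨fun a b h => h.symm⟩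
  exact h3.forall hn hm hne h1 h2

theorem ycs_eq (hS : Sfree S) (hL : MinCover S L) {M : List (List ℕ)} {κ κ' : List Cir}
    (h : κ ∈ ycs M (nodes L F) P) (h' : κ' ∈ ycs M (nodes L F) P) {n : Cir} (h1 : n ∈ κ)
    (h2 : n ∈ κ') : κ = κ' := by
  by_contra hne
  have h3 := ycs_disj (M := M) (P := P) (nodes_nodup (F := F) hS hL)
  have : Std.Symm (List.Disjoint : List Cir → List Cir → Prop) := ⟨fun a b h => h.symm⟩
  exact h3.forall h h' hne h1 h2

theorem items_nodup (hS : Sfree S) (hL : MinCover S L) (B : ℕ) : (items B L F P).Nodup := by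
  unfold items
  refine List.Nodup.append ?_ ?_ ?_
  · exact ((nodup_L hS hL).filter _).map Sum.inl_injective
  · refine List.Nodup.map Sum.inr_injective ?_
    refine List.Pairwise.imp_of_mem ?_ (ycs_disj (nodes_nodup (F := F) hS hL))
    rintro a b ha hb hd rfl
    obtain ⟨s, hs⟩ := List.exists_mem_of_ne_nil _ (ycs_ne ha)
    exact hd hs hs
  · intro t h1 h2
    obtain ⟨c, -, rfl⟩ := List.mem_map.1 h1
    obtain ⟨d, -, h⟩ := List.mem_map.1 h2
    cases h

/-- The class of a string. -/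
theorem exists_node (hS : Sfree S) (hL : MinCover S L) {C : Cir} (hC : C ∈ L) {s : List ℕ}
    (hs : s ∈ C) : ∃ n ∈ nodes L F, s ∈ n ∧ (C ∈ F → n = C) ∧ (C ∉ F → n = [s]) := by
  by_cases h : C ∈ F
  · exact ⟨C, mem_nodes.2 (Or.inl ⟨hC, h⟩), hs, fun _ => rfl, fun h' => absurd h h'⟩
  · exact ⟨[s], mem_nodes.2 (Or.inr ⟨C, hC, h, s, hs, rfl⟩), by simp, fun h' => absurd h' h,
      fun _ => rfl⟩

/-- A string of a class in the walk of the cycle of classes. -/
theorem mem_walkY (hb2 : PartB2) (hS : Sfree S) (hL : MinCover S L) (hF : FOk L F)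
    {M : List (List ℕ)} {κ : List Cir} (h : κ ∈ ycs M (nodes L F) P) (s : List ℕ) :
    s ∈ walkY (bnd S) F κ ↔ ∃ n ∈ κ, s ∈ n :=
  (hb2 S L F hS hL hF κ (ycs_ne h) (ycs_nodup (nodes_nodup hS hL) h)
    (fun n hn => ycs_mem h hn)).2.1 s

/-- The walks of the items consist of strings of the family. -/
theorem wk_sub (hb2 : PartB2) (hS : Sfree S) (hL : MinCover S L) (hF : FOk L F) {t : Itm}
    (ht : t ∈ items (bnd S) L F P) : ∀ s ∈ wk (bnd S) F t, s ∈ L.flatten := by
  intro s hs
  cases t with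
  | inl c =>
    exact List.mem_flatten.2 ⟨c, (mem_items_inl.1 ht).1, hs⟩
  | inr κ =>
    have h := mem_items_inr.1 ht
    obtain ⟨n, hn, hsn⟩ := (mem_walkY hb2 hS hL hF h s).1 hs
    rw [← nodes_flatten L F]
    exact List.mem_flatten.2 ⟨n, ycs_mem h hn, hsn⟩

theorem wk_ne (hb2 : PartB2) (hS : Sfree S) (hL : MinCover S L) (hF : FOk L F) {t : Itm}
    (ht : t ∈ items (bnd S) L F P) : wk (bnd S) F t ≠ [] := by
  cases t with
  | inl c => exact hL.ne c (mem_items_inl.1 ht).1
  | inr κ =>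
    have h := mem_items_inr.1 ht
    obtain ⟨n, hn⟩ := List.exists_mem_of_ne_nil _ (ycs_ne h)
    obtain ⟨s, hs⟩ := List.exists_mem_of_ne_nil _ (node_ne hL (ycs_mem h hn))
    exact List.ne_nil_of_mem ((mem_walkY hb2 hS hL hF h s).2 ⟨n, hn, hs⟩)

/-- Every string is in the walk of a cycle of classes. -/
theorem exists_inr (hb2 : PartB2) (hS : Sfree S) (hL : MinCover S L) (hF : FOk L F)
    {n : Cir} (hn : n ∈ nodes L F) : ∃ κ, (Sum.inr κ : Itm) ∈ items (bnd S) L F P ∧ n ∈ κ ∧
      ∀ s ∈ n, s ∈ wk (bnd S) F (Sum.inr κ) := by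
  obtain ⟨κ, hκ, h⟩ := exists_ycs (gmat (bnd S) F (nodes L F)) P hn
  exact ⟨κ, mem_items_inr.2 hκ, h, fun s hs => (mem_walkY hb2 hS hL hF hκ s).2 ⟨n, h, hs⟩⟩

/-! ### Groups -/

/-- The items of a component `W`. -/
structure Grp (B : ℕ) (L F : List Cir) (P : List ℕ) (H : List Itm) (W : Cir) : Prop where
  spl : Spl (H.map (wk B F)) W
  mem : ∀ t ∈ H, t ∈ items B L F P
  nd : H.Nodup
  own : ∀ t ∈ items B L F P, ∀ s ∈ wk B F t, s ∈ W → t ∈ H

theorem Grp.exists_item {B : ℕ} {H : List Itm} {W : Cir} (g : Grp B L F P H W) {s : List ℕ}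
    (hs : s ∈ W) : ∃ t ∈ H, s ∈ wk B F t := by
  have h := g.spl.perm.mem_iff.1 hs
  obtain ⟨c, hc, hsc⟩ := List.mem_flatten.1 h
  obtain ⟨t, ht, rfl⟩ := List.mem_map.1 hc
  exact ⟨t, ht, hsc⟩

theorem Grp.mem_wk {B : ℕ} {H : List Itm} {W : Cir} (g : Grp B L F P H W) {t : Itm}
    (ht : t ∈ H) {s : List ℕ} (hs : s ∈ wk B F t) : s ∈ W :=
  g.spl.perm.mem_iff.2 (List.mem_flatten.2 ⟨_, List.mem_map.2 ⟨t, ht, rfl⟩, hs⟩)

theorem exists_grps (hb2 : PartB2) (hb3 : PartB3) (hS : Sfree S) (hL : MinCover S L)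
    (hF : FOk L F) (P : List ℕ) : ∃ Hs : List (List Itm), Hs.flatten.Perm (items (bnd S) L F P) ∧
      List.Forall₂ (Grp (bnd S) L F P) Hs (spliceAll (walks0 (bnd S) L F P)) := by
  obtain ⟨Gs, h1, h2, h3⟩ := hb3 (walks0 (bnd S) L F P)
  obtain ⟨ts, h4, h5⟩ := perm_lift (wk (bnd S) F) h2 _ (map_wk_items (bnd S) L F P)
  obtain ⟨Hs, h6, h7⟩ := split_lift (wk (bnd S) F) Gs ts h5
  have h8 : Hs.flatten.Perm (items (bnd S) L F P) := by rw [h6]; exact h4
  refine ⟨Hs, h8, ?_⟩
  rw [← h7, List.forall₂_map_left_iff] at h1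
  have hnd : Hs.flatten.Nodup := h8.nodup_iff.2 (items_nodup hS hL _)
  have hlen := h1.length_eq
  rw [List.forall₂_iff_get] at h1 ⊢
  refine ⟨h1.1, fun i hi1 hi2 => ?_⟩
  refine ⟨h1.2 i hi1 hi2, fun t ht => h8.mem_iff.1 (List.mem_flatten.2 ⟨_, List.get_mem _ _, ht⟩),
    (List.nodup_flatten.1 hnd).1 _ (List.get_mem _ _), fun t ht s hs hsW => ?_⟩
  obtain ⟨H', hH', ht'⟩ := List.mem_flatten.1 (h8.mem_iff.2 ht)
  obtain ⟨j, hj⟩ := List.get_of_mem hH'
  have hj2 : j.1 < (spliceAll (walks0 (bnd S) L F P)).length := by rw [← hlen]; exact j.2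
  have hsp := h1.2 j.1 j.2 hj2
  have hsW' : s ∈ (spliceAll (walks0 (bnd S) L F P)).get ⟨j.1, hj2⟩ := by
    refine hsp.perm.mem_iff.2 (List.mem_flatten.2 ⟨wk (bnd S) F t, ?_, hs⟩)
    refine List.mem_map.2 ⟨t, ?_, rfl⟩
    have : Hs.get ⟨j.1, j.2⟩ = H' := hj
    rw [this]
    exact ht'
  by_cases hij : i = j.1
  · subst hij
    have : Hs.get ⟨j.1, hi1⟩ = H' := hj
    rw [this]
    exact ht'
  · exfalso
    rw [List.pairwise_iff_get] at h3
    rcases Nat.lt_or_gt_of_ne hij with h | h
    · exact h3 ⟨i, hi2⟩ ⟨j.1, hj2⟩ h s hsW hsW'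
    · exact h3 ⟨j.1, hj2⟩ ⟨i, hi2⟩ h s hsW' hsW

/-! ### Records -/

theorem trav_mem {n : Cir} {a h s : List ℕ} (hs : s ∈ trav n a h) : s ∈ n := by
  unfold trav at hs
  rw [List.mem_append] at hs
  rcases hs with hs | hs
  · exact List.mem_rotate.1 hs
  · exact List.mem_rotate.1 (List.mem_of_mem_take hs)

theorem trav_ne {n : Cir} (hn : n ≠ []) (a h : List ℕ) : trav n a h ≠ [] := by
  unfold trav
  intro h1
  rw [List.append_eq_nil_iff] at h1
  exact hn (List.rotate_eq_nil_iff.1 h1.1)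

theorem last_head_mem {c : Cir} (hc : c ≠ []) : (c.getLastD [], c.headD []) ∈ cprs [] c := by
  obtain ⟨e, he, h1⟩ := exists_cprs_snd [] (c := c) (s := c.headD []) (by
    obtain ⟨a, r, rfl⟩ := List.exists_cons_of_ne_nil hc
    simp)
  -- the last pair of the list
  have key : ∀ (h : List ℕ) (c : Cir), c ≠ [] → (c.getLastD [], h) ∈ prsC h c := by
    intro h c
    induction c with
    | nil => intro h1; exact absurd rfl h1
    | cons x r ih =>
      intro _
      cases r with
      | nil => simp [prsC]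
      | cons y r =>
        have h1 := ih (by simp)
        have h2 : (x :: y :: r).getLastD [] = (y :: r).getLastD [] := by simp [List.getLastD]
        rw [h2, prsC]
        exact List.mem_cons_of_mem _ h1
  exact key _ c hc

/-- A visit of a contracted circle gives a record. -/
theorem exists_rcd (hb2 : PartB2) (hS : Sfree S) (hL : MinCover S L) (hF : FOk L F)
    {M : List (List ℕ)} {κ : List Cir} (h : κ ∈ ycs M (nodes L F) P) {v : Arc × Arc}
    (hv : v ∈ visF (bnd S) F κ) : ∃ r : Rcd, r.1 = v.1.1.2 ∧ r.1 ∈ F ∧ r.1 ∈ κ ∧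
      r.2.1 ∈ cprs [] r.1 ∧ r.2.2 ∈ cprs [] r.1 ∧ rslk r ≤ slk F v ∧
      trav r.1 r.2.2.2 r.2.1.1 <:+: walkY (bnd S) F κ := by
  have hb := hb2 S L F hS hL hF κ (ycs_ne h) (ycs_nodup (nodes_nodup hS hL) h)
    (fun n hn => ycs_mem h hn)
  obtain ⟨h1, h2, h3, ⟨e1, he1, e2, he2, h4, h5⟩, h6⟩ := hb.2.2.2 v hv
  have hvF : v.1.1.2 ∈ F := by
    unfold visF at hv
    rw [List.mem_filter] at hv
    simpa using hv.2
  have hDL := hF.sub _ hvF
  have hDne := hL.ne _ hDL
  by_cases hl : v.1.1.1 = v.1.1.2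
  · obtain ⟨h7, h8⟩ := h3 hl
    refine ⟨(v.1.1.2, (v.1.1.2.getLastD [], v.1.1.2.headD []),
      (v.1.1.2.getLastD [], v.1.1.2.headD [])), rfl, hvF, h1, last_head_mem hDne,
      last_head_mem hDne, ?_, ?_⟩
    · have h9 := trav_self hDne (nodup_cir hS hL hDL)
      have h10 := length_mergeL' v.1.1.2
      have h11 := hF.big _ hvF
      unfold G.big at h11
      rw [decide_eq_true_eq] at h11
      have h12 : slk F v = 2 * cycO v.1.1.2 := by
        unfold slk
        rw [if_pos (by simpa using hl)]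
      rw [h12]
      unfold rslk
      dsimp only
      rw [h9, h10]
      have h13 : ov (v.1.1.2.getLastD []) (v.1.1.2.headD []) = cycO v.1.1.2 := rfl
      rw [h13]
      omega
    · dsimp only
      rw [trav_self hDne (nodup_cir hS hL hDL), h8]
  · have hseg : seg F v.1.1.2 v.1.2.2.1 v.2.2.1.1 = trav v.1.1.2 e2.2 e1.1 := by
      unfold seg
      rw [if_pos (by simpa using hvF), h4, h5]
    refine ⟨(v.1.1.2, e1, e2), rfl, hvF, h1, he1, he2, ?_, ?_⟩
    · unfold slk
      rw [if_neg (by simpa using hl), hseg, h4, h5]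
      unfold rslk
      dsimp only
      omega
    · rw [hseg] at h6
      exact h6

/-- The component of a group. -/
theorem Grp.comp (hb2 : PartB2) (hS : Sfree S) (hL : MinCover S L) (hF : FOk L F)
    {H : List Itm} {W : Cir} (g : Grp (bnd S) L F P H W) : ∃ K : List Rcd, Comp L F W K ∧
      (K.map rslk).sum ≤ (H.map (sl (bnd S) F)).sum := by
  -- the records
  have hex : ∀ t ∈ H, ∀ v ∈ vis (bnd S) F t, ∃ r : Rcd, r.1 = v.1.1.2 ∧ r.1 ∈ F ∧
      (∃ κ, t = Sum.inr κ ∧ r.1 ∈ κ) ∧
      r.2.1 ∈ cprs [] r.1 ∧ r.2.2 ∈ cprs [] r.1 ∧ rslk r ≤ slk F v ∧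
      trav r.1 r.2.2.2 r.2.1.1 <:+: wk (bnd S) F t := by
    intro t ht v hv
    cases t with
    | inl c => simp [vis] at hv
    | inr κ =>
      obtain ⟨r, h1, h2, h3, h4, h5, h6, h7⟩ := exists_rcd hb2 hS hL hF
        (mem_items_inr.1 (g.mem _ ht)) hv
      exact ⟨r, h1, h2, ⟨κ, rfl, h3⟩, h4, h5, h6, h7⟩
  choose! f hf using hex
  refine ⟨H.flatMap (fun t => (vis (bnd S) F t).map (f t)), ⟨?_, ?_, ?_, ?_, ?_, ?_⟩, ?_⟩
  · -- nonempty
    have hne : H ≠ [] := fun h => g.spl.ne (by rw [h]; rfl)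
    obtain ⟨t, ht⟩ := List.exists_mem_of_ne_nil _ hne
    obtain ⟨s, hs⟩ := List.exists_mem_of_ne_nil _ (wk_ne hb2 hS hL hF (g.mem t ht))
    exact List.ne_nil_of_mem (g.mem_wk ht hs)
  · intro s hs
    obtain ⟨t, ht, hst⟩ := g.exists_item hs
    exact wk_sub hb2 hS hL hF (g.mem t ht) s hst
  · intro C hC s hsC hsW t ht
    by_cases hCF : C ∈ F
    · obtain ⟨κ, h1, h2, h3⟩ := exists_inr (P := P) hb2 hS hL hF
        (mem_nodes.2 (Or.inl ⟨hC, hCF⟩))
      exact g.mem_wk (g.own _ h1 s (h3 s hsC) hsW) (h3 t ht)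
    · have h1 : (Sum.inl C : Itm) ∈ items (bnd S) L F P := mem_items_inl.2 ⟨hC, hCF⟩
      exact g.mem_wk (t := Sum.inl C) (g.own _ h1 s hsC hsW) ht
  · intro C hC hCF s hsC hsW
    have h1 : (Sum.inl C : Itm) ∈ items (bnd S) L F P := mem_items_inl.2 ⟨hC, hCF⟩
    have h2 := g.own _ h1 s hsC hsW
    obtain ⟨κ, h3, h4, h5⟩ := exists_inr (P := P) hb2 hS hL hF
      (mem_nodes.2 (Or.inr ⟨C, hC, hCF, s, hsC, rfl⟩))
    have h6 := g.own _ h3 s (h5 s (by simp)) hsW
    obtain ⟨R, a1, a2, a3⟩ := perm_of_mem g.nd h2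
    obtain ⟨R', a4, a5, a6⟩ := perm_of_mem a2 ((a3 (Sum.inr κ)).2 ⟨h6, by simp⟩)
    have h8 : (H.map (wk (bnd S) F)).Perm
        (C :: wk (bnd S) F (Sum.inr κ) :: (R'.map (wk (bnd S) F))) :=
      (a1.trans (a4.cons _)).map (wk (bnd S) F)
    have h9 := (g.spl.perm.trans h8.flatten).count_eq s
    rw [h9, List.flatten_cons, List.flatten_cons, List.count_append, List.count_append]
    have h10 : 0 < C.count s := List.count_pos_iff.2 hsC
    have h11 : 0 < (wk (bnd S) F (Sum.inr κ)).count s :=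
      List.count_pos_iff.2 (h5 s (by simp))
    omega
  · intro r hr
    obtain ⟨t, ht, hr⟩ := List.mem_flatMap.1 hr
    obtain ⟨v, hv, rfl⟩ := List.mem_map.1 hr
    obtain ⟨h1, h2, ⟨κ, rfl, h3⟩, h4, h5, h6, h7⟩ := hf t ht v hv
    refine ⟨h2, h4, h5, ?_⟩
    obtain ⟨R, a1, a2, a3⟩ := perm_of_mem g.nd ht
    have hperm := a1.map (wk (bnd S) F)
    rw [List.map_cons] at hperm
    refine g.spl.blk _ _ hperm _ 0 (trav_ne (hL.ne _ (hF.sub _ h2)) _ _) ?_ ?_
    · rw [List.rotate_zero]
      exact h7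
    · intro s hs d hd hsd
      obtain ⟨t', ht', rfl⟩ := List.mem_map.1 hd
      rw [a3] at ht'
      have hsD := trav_mem hs
      have hDn : (f (Sum.inr κ) v).1 ∈ nodes L F := mem_nodes.2 (Or.inl ⟨hF.sub _ h2, h2⟩)
      cases t' with
      | inl c =>
        obtain ⟨b1, b2⟩ := mem_items_inl.1 (g.mem _ ht'.1)
        have b3 := cir_eq hS hL b1 (hF.sub _ h2) hsd hsD
        exact b2 (b3 ▸ h2)
      | inr κ' =>
        have b1 := mem_items_inr.1 (g.mem _ ht'.1)
        obtain ⟨n, b2, b3⟩ := (mem_walkY hb2 hS hL hF b1 s).1 hsd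
        have b4 := node_eq hS hL (ycs_mem b1 b2) hDn b3 hsD
        rw [b4] at b2
        have b5 := ycs_eq hS hL b1 (mem_items_inr.1 (g.mem _ ht)) b2 h3
        exact ht'.2 (by rw [b5])
  · intro D hD s hsD hsW
    obtain ⟨κ, h1, h2, h3⟩ := exists_inr (P := P) hb2 hS hL hF
      (mem_nodes.2 (Or.inl ⟨hF.sub D hD, hD⟩))
    have h4 := g.own _ h1 s (h3 s hsD) hsW
    have h5 := mem_items_inr.1 h1
    obtain ⟨v, hv, h6⟩ := (hb2 S L F hS hL hF κ (ycs_ne h5) (ycs_nodup (nodes_nodup hS hL) h5)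
      (fun n hn => ycs_mem h5 hn)).2.2.1 D h2 hD
    refine ⟨f (Sum.inr κ) v, List.mem_flatMap.2 ⟨_, h4, List.mem_map.2 ⟨v, hv, rfl⟩⟩, ?_⟩
    rw [(hf _ h4 v hv).1, h6]
  · -- sums
    rw [List.map_flatMap, List.flatMap_def, List.sum_flatten, List.map_map]
    refine List.sum_le_sum fun t ht => ?_
    simp only [Function.comp_apply]
    unfold sl
    rw [List.map_map]
    exact List.sum_le_sum fun v hv => (hf t ht v hv).2.2.2.2.2.1

/-! ### One circle -/

/-- The walk of a cycle of classes without contracted circles. -/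
theorem walkY_perm (B : ℕ) {F : List Cir} {κ : List Cir} (hne : κ ≠ []) (h : ∀ n ∈ κ, n ∉ F) :
    (walkY B F κ).Perm κ.flatten := by
  have h1 : walkY B F κ = ((rr κ).map (fun r => r.1.2)).flatten := by
    rw [walkY_eq B F hne, List.flatMap_def]
    congr 1
    refine List.map_congr_left fun r hr => ?_
    have h2 := (mem_cprs' _ (rr_mem hr).1).2
    unfold blk seg
    rw [if_neg (by simpa using h _ h2)]
  rw [h1]
  refine List.Perm.flatten ?_
  have h2 : (rr κ).map (fun r => r.1.2) = (cprs [] κ).map Prod.snd := by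
    have h3 := cprs_fst (([], []) : Cir × Cir) (cprs [] κ)
    conv_rhs => rw [← h3, List.map_map]
    rfl
  rw [h2]
  exact cprs_snd [] κ

theorem Grp.one (hb2 : PartB2) (hb4 : PartB4b) (hS : Sfree S) (hL : MinCover S L)
    (hF : FOk L F) (hP : P.Perm (List.range (nodes L F).length)) (hleft : Left L F P)
    {H : List Itm} {W : Cir} (g : Grp (bnd S) L F P H W) {C : Cir} (hC : C ∈ L)
    (hW : ∀ s ∈ W, s ∈ C) (hWne : W ≠ []) :
    2 * (outW L W).length ≤ 2 * cycW W + (H.map (sl (bnd S) F)).sum := by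
  have h0 := hb4 L W C hC hW
  have hcyc : cycW W = (H.map (fun t => cycW (wk (bnd S) F t))).sum := by
    rw [g.spl.cyc, List.map_map]
    rfl
  obtain ⟨s0, hs0⟩ := List.exists_mem_of_ne_nil _ hWne
  have hs0C := hW s0 hs0
  have hmem : ∀ t ∈ H, ∀ s ∈ wk (bnd S) F t, s ∈ C := fun t ht s hs => hW s (g.mem_wk ht hs)
  have hinl : ∀ c : Cir, (Sum.inl c : Itm) ∈ H → c = C := by
    intro c hc
    have h1 := (mem_items_inl.1 (g.mem _ hc)).1
    obtain ⟨s, hs⟩ := List.exists_mem_of_ne_nil _ (hL.ne c h1)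
    exact cir_eq hS hL h1 hC hs (hmem _ hc s hs)
  by_cases hCF : C ∈ F
  · -- contracted
    have hCn : C ∈ nodes L F := mem_nodes.2 (Or.inl ⟨hC, hCF⟩)
    obtain ⟨κ, h1, h2, h3⟩ := exists_inr (P := P) hb2 hS hL hF hCn
    have h4 := g.own _ h1 s0 (h3 s0 hs0C) hs0
    have h5 : ∀ t ∈ H, ∃ κ', t = Sum.inr κ' ∧ κ' = [C] := by
      intro t ht
      cases t with
      | inl c =>
        exfalso
        have a1 := hinl c ht
        exact (mem_items_inl.1 (g.mem _ ht)).2 (by rw [a1]; exact hCF)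
      | inr κ' =>
        refine ⟨κ', rfl, ?_⟩
        have a1 := mem_items_inr.1 (g.mem _ ht)
        have a2 : ∀ n ∈ κ', n = C := by
          intro n hn
          have hn1 := ycs_mem a1 hn
          obtain ⟨s, hs⟩ := List.exists_mem_of_ne_nil _ (node_ne hL hn1)
          have hsC := hmem _ ht s ((mem_walkY hb2 hS hL hF a1 s).2 ⟨n, hn, hs⟩)
          exact node_eq hS hL hn1 hCn hs hsC
        have a3 := ycs_nodup (nodes_nodup (F := F) hS hL) a1
        cases κ' with
        | nil => exact absurd rfl (ycs_ne a1)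
        | cons x r =>
          have b1 := a2 x (by simp)
          subst b1
          cases r with
          | nil => rfl
          | cons y r =>
            exfalso
            have b2 := a2 y (by simp)
            subst b2
            simp at a3
    have h6 : H = [Sum.inr [C]] := by
      have a1 : ∀ t ∈ H, t = Sum.inr [C] := by
        intro t ht
        obtain ⟨κ', b1, b2⟩ := h5 t ht
        rw [b1, b2]
      have a2 := g.nd
      cases H with
      | nil => simp at h4
      | cons x r =>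
        have b1 := a1 x (by simp)
        subst b1
        cases r with
        | nil => rfl
        | cons y r =>
          exfalso
          have b2 := a1 y (by simp)
          subst b2
          simp at a2
    have h7 : cycW W = cycW C := by
      rw [hcyc, h6]
      simp only [List.map_cons, List.map_nil, List.sum_cons, List.sum_nil, Nat.add_zero]
      change cycW (walkY (bnd S) F [C]) = cycW C
      rw [walkY_loop (bnd S) (hL.ne C hC) (nodup_cir hS hL hC) hCF]
    have h8 : (H.map (sl (bnd S) F)).sum = 2 * cycO C := by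
      rw [h6]
      simp only [List.map_cons, List.map_nil, List.sum_cons, List.sum_nil, Nat.add_zero]
      change ((visF (bnd S) F [C]).map (slk F)).sum = 2 * cycO C
      have hv : visF (bnd S) F [C] = [(gA (bnd S) F (C, C), gA (bnd S) F (C, C))] := by
        rw [visF_eq _ _ (by simp), rr_single, List.filter_cons_of_pos (by simpa using hCF)]
        rfl
      rw [hv]
      simp only [List.map_cons, List.map_nil, List.sum_cons, List.sum_nil, Nat.add_zero]
      unfold slk
      rw [if_pos (by simp [gA])]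
      rfl
    rw [h7, h8]
    omega
  · -- not contracted
    have h1 : (Sum.inl C : Itm) ∈ items (bnd S) L F P := mem_items_inl.2 ⟨hC, hCF⟩
    have h2 := g.own _ h1 s0 hs0C hs0
    have hCW : ∀ s ∈ C, s ∈ W := fun s hs => g.mem_wk h2 hs
    obtain ⟨R, a1, a2, a3⟩ := perm_of_mem g.nd h2
    -- the other items are cycles of classes
    have hR : ∀ t ∈ R, ∃ κ, t = Sum.inr κ := by
      intro t ht
      obtain ⟨b1, b2⟩ := (a3 t).1 ht
      cases t with
      | inl c => exact absurd (by rw [hinl c b1]) b2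
      | inr κ => exact ⟨κ, rfl⟩
    obtain ⟨Ks, hKs⟩ : ∃ Ks : List (List Cir), R = Ks.map Sum.inr := by
      refine ⟨R.map (fun t => t.elim (fun _ => []) id), ?_⟩
      rw [List.map_map]
      conv_lhs => rw [← List.map_id R]
      refine List.map_congr_left fun t ht => ?_
      obtain ⟨κ, rfl⟩ := hR t ht
      rfl
    have hKmem : ∀ κ, κ ∈ Ks ↔ (Sum.inr κ : Itm) ∈ H := by
      intro κ
      have b1 := a3 (Sum.inr κ)
      rw [hKs, List.mem_map] at b1
      constructor
      · intro h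
        exact (b1.1 ⟨κ, h, rfl⟩).1
      · intro h
        obtain ⟨κ', h3, h4⟩ := b1.2 ⟨h, by simp⟩
        rw [Sum.inr.injEq] at h4
        rwa [← h4]
    have hKy : ∀ κ ∈ Ks, κ ∈ ycs (gmat (bnd S) F (nodes L F)) (nodes L F) P := fun κ hκ =>
      mem_items_inr.1 (g.mem _ ((hKmem κ).1 hκ))
    have hKnd : Ks.Nodup := by
      rw [hKs] at a2
      exact List.Nodup.of_map _ a2
    have hnode : ∀ κ ∈ Ks, ∀ n ∈ κ, n ∉ F := by
      intro κ hκ n hn hnF
      have b1 := ycs_mem (hKy κ hκ) hn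
      obtain ⟨s, hs⟩ := List.exists_mem_of_ne_nil _ (node_ne hL b1)
      have hsC := hmem _ ((hKmem κ).1 hκ) s ((mem_walkY hb2 hS hL hF (hKy κ hκ) s).2 ⟨n, hn, hs⟩)
      exact hCF (by rw [cir_eq hS hL hC (hF.sub n hnF) hsC hs]; exact hnF)
    have hfl : (Ks.map (walkY (bnd S) F)).flatten.Perm Ks.flatten.flatten := by
      have b1 : Ks.flatten.flatten = (Ks.map List.flatten).flatten := by
        rw [List.flatten_flatten]
      rw [b1]
      have b2 : ∀ K : List (List Cir), (∀ κ ∈ K, κ ∈ Ks) →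
          (K.map (walkY (bnd S) F)).flatten.Perm (K.map List.flatten).flatten := by
        intro K
        induction K with
        | nil => intro _; exact List.Perm.refl _
        | cons κ K ih =>
          intro hK
          rw [List.map_cons, List.map_cons, List.flatten_cons, List.flatten_cons]
          have hκ := hK κ (by simp)
          exact (walkY_perm _ (ycs_ne (hKy κ hκ)) (hnode κ hκ)).append
            (ih fun κ' h' => hK κ' (List.mem_cons_of_mem _ h'))
      exact b2 Ks fun κ h => h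
    have hnd1 : Ks.flatten.Nodup := by
      rw [List.nodup_flatten]
      refine ⟨fun κ hκ => ycs_nodup (nodes_nodup hS hL) (hKy κ hκ), ?_⟩
      refine hKnd.pairwise_of_forall_ne fun κ hκ κ' hκ' hne n hn hn' => ?_
      exact hne (ycs_eq hS hL (hKy κ hκ) (hKy κ' hκ') hn hn')
    have hnodes : ∀ n ∈ Ks.flatten, n ∈ nodes L F := by
      intro n hn
      obtain ⟨κ, hκ, hn⟩ := List.mem_flatten.1 hn
      exact ycs_mem (hKy κ hκ) hn
    have hnd2 : Ks.flatten.flatten.Nodup := by
      rw [List.nodup_flatten]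
      refine ⟨fun n hn => ?_, ?_⟩
      · obtain ⟨κ, hκ, hn'⟩ := List.mem_flatten.1 hn
        obtain ⟨s, rfl⟩ := node_single (hnodes n hn) (hnode κ hκ n hn')
        simp
      · refine hnd1.pairwise_of_forall_ne fun n hn m hm hne s hs hs' => ?_
        exact hne (node_eq hS hL (hnodes n hn) (hnodes m hm) hs hs')
    have hperm : (Ks.map (walkY (bnd S) F)).flatten.Perm C := by
      refine hfl.trans ?_
      rw [List.perm_ext_iff_of_nodup hnd2 (nodup_cir hS hL hC)]
      intro s
      constructor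
      · intro hs
        rw [← hfl.mem_iff] at hs
        obtain ⟨w, hw, hsw⟩ := List.mem_flatten.1 hs
        obtain ⟨κ, hκ, rfl⟩ := List.mem_map.1 hw
        exact hmem _ ((hKmem κ).1 hκ) s hsw
      · intro hs
        obtain ⟨κ, h3, h4, h5⟩ := exists_inr (P := P) hb2 hS hL hF
          (mem_nodes.2 (Or.inr ⟨C, hC, hCF, s, hs, rfl⟩))
        have h6 := g.own _ h3 s (h5 s (by simp)) (hCW s hs)
        exact List.mem_flatten.2 ⟨[s], List.mem_flatten.2 ⟨κ, (hKmem κ).2 h6, h4⟩, by simp⟩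
    -- minimality
    obtain ⟨L', b1, b2, b3⟩ := perm_of_mem (nodup_L hS hL) hC
    have hmin := hL.min (L' ++ Ks.map (walkY (bnd S) F)) (by
      rw [List.flatten_append]
      refine List.Perm.trans ?_ hL.perm
      refine List.Perm.trans ?_ b1.flatten.symm
      rw [List.flatten_cons]
      exact (hperm.append_left _).trans List.perm_append_comm) (by
      intro c hc
      rw [List.mem_append] at hc
      rcases hc with hc | hc
      · exact hL.ne c ((b3 c).1 hc).1
      · obtain ⟨κ, hκ, rfl⟩ := List.mem_map.1 hc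
        exact wk_ne hb2 hS hL hF (g.mem _ ((hKmem κ).1 hκ)))
    rw [(b1.map cycW).sum_eq, List.map_cons, List.sum_cons, List.map_append, List.sum_append,
      List.map_map] at hmin
    have hcyc2 : cycW W = cycW C + (Ks.map (cycW ∘ walkY (bnd S) F)).sum := by
      rw [hcyc, (a1.map _).sum_eq, List.map_cons, List.sum_cons, hKs, List.map_map]
      rfl
    -- the circle is not big
    have hbig : ¬ G.big C = true := by
      intro hb
      have h3 := hleft C hC hb hCF
      unfold lv at h3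
      rw [List.countP_pos_iff] at h3
      obtain ⟨i, hi, h4⟩ := h3
      rw [List.mem_range] at hi
      rw [Bool.and_eq_true, Bool.not_eq_true', decide_eq_true_eq, decide_eq_false_iff_not] at h4
      have hPl : P.length = (nodes L F).length := by rw [hP.length_eq, List.length_range]
      have hin : (nodes L F).getD i [] ∈ nodes L F := by
        rw [List.getD_eq_getElem _ _ hi]
        exact List.getElem_mem _
      obtain ⟨κ, h5, h6, h7⟩ := exists_inr (P := P) hb2 hS hL hF hin
      have h8 : (Sum.inr κ : Itm) ∈ H := by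
        have hne := node_ne hL hin
        have hh : ((nodes L F).getD i []).headD [] ∈ (nodes L F).getD i [] := by
          obtain ⟨a, r, hr⟩ := List.exists_cons_of_ne_nil hne
          rw [hr]
          simp
        exact g.own _ h5 _ (h7 _ hh) (hCW _ h4.1)
      have h9 := mem_items_inr.1 h5
      obtain ⟨e, he, he1⟩ := exists_cprs_fst ([] : Cir) h6
      obtain ⟨j, hj, c1, c2⟩ := ycs_arc hP h9 he
      have hij : i = j := by
        rw [he1, List.getD_eq_getElem _ _ hi, List.getD_eq_getElem _ _ hj] at c1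
        exact (List.Nodup.getElem_inj_iff (nodes_nodup hS hL)).1 c1
      subst hij
      have c3 := (mem_cprs' _ he).2
      rw [c2] at c3
      apply h4.2
      have c4 := ycs_mem h9 c3
      have hh : ((nodes L F).getD (P.getD i 0) []).headD [] ∈
          (nodes L F).getD (P.getD i 0) [] := by
        obtain ⟨a, r, hr⟩ := List.exists_cons_of_ne_nil (node_ne hL c4)
        rw [hr]
        simp
      exact hmem _ h8 _ ((mem_walkY hb2 hS hL hF h9 _).2 ⟨_, c3, hh⟩)
    unfold G.big at hbig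
    rw [decide_eq_true_eq] at hbig
    omega

/-! ### Assembly -/

theorem Grp.le (hb2 : PartB2) (hb4b : PartB4b) (hb4c : PartB4c) (hb4d : PartB4d)
    (hS : Sfree S) (hL : MinCover S L)
    (hF : FOk L F) (hP : P.Perm (List.range (nodes L F).length)) (hleft : Left L F P)
    {H : List Itm} {W : Cir} (g : Grp (bnd S) L F P H W) :
    2 * (outW L W).length ≤ 2 * cycW W + (H.map (sl (bnd S) F)).sum := by
  obtain ⟨K, hK, hsum⟩ := g.comp hb2 hS hL hF
  by_cases h2 : ∃ C ∈ L, ∃ D ∈ L, C ≠ D ∧ (∃ s ∈ C, s ∈ W) ∧ ∃ s ∈ D, s ∈ W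
  · by_cases hq : ∃ q, 0 < q ∧ q < cycW W ∧ ∀ k, cycWord W (k + q) = cycWord W k
    · have := hb4c S L F W K hS hL hF hK h2 hq
      omega
    · have := hb4d S L F W K hS hL hF hK h2 hq
      omega
  · obtain ⟨s0, hs0⟩ := List.exists_mem_of_ne_nil _ hK.ne
    obtain ⟨C, hC, hsC⟩ := List.mem_flatten.1 (hK.sub s0 hs0)
    refine g.one hb2 hb4b hS hL hF hP hleft hC (fun s hs => ?_) hK.ne
    obtain ⟨D, hD, hsD⟩ := List.mem_flatten.1 (hK.sub s hs)
    by_cases hCD : C = D
    · rw [hCD]
      exact hsD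
    · exact absurd ⟨C, hC, D, hD, hCD, ⟨s0, hsC, hs0⟩, s, hsD, hs⟩ h2

theorem sum_forall₂ {α β : Type*} (R : α → β → Prop) (f : α → ℕ) (h k : β → ℕ)
    (hR : ∀ a b, R a b → 2 * h b ≤ 2 * k b + f a) {l : List α} {m : List β}
    (hlm : List.Forall₂ R l m) :
    2 * (m.map h).sum ≤ 2 * (m.map k).sum + (l.map f).sum := by
  induction hlm with
  | nil => simp
  | cons h1 _ ih =>
    have := hR _ _ h1
    simp only [List.map_cons, List.sum_cons]
    omega

/-- **B5**: the bound for the output. -/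
theorem partB_of (hb2 : PartB2) (hb3 : PartB3) (hb4b : PartB4b) (hb4c : PartB4c)
    (hb4d : PartB4d) : PartB := by
  intro S L F P hS hL hF hP hleft
  obtain ⟨Hs, h1, h2⟩ := exists_grps hb2 hb3 hS hL hF P
  have h3 := sum_forall₂ (Grp (bnd S) L F P) (fun H => (H.map (sl (bnd S) F)).sum)
    (fun W => (outW L W).length) cycW
    (fun H W g => g.le hb2 hb4b hb4c hb4d hS hL hF hP hleft) h2
  have h4 : (outF S L F P).length =
      ((spliceAll (walks0 (bnd S) L F P)).map (fun W => (outW L W).length)).sum := by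
    unfold outF
    rw [List.length_flatten, List.map_map]
    rfl
  -- total weight
  have h5 : ((spliceAll (walks0 (bnd S) L F P)).map cycW).sum =
      ((walks0 (bnd S) L F P).map cycW).sum := by
    obtain ⟨Gs, g1, g2, -⟩ := hb3 (walks0 (bnd S) L F P)
    rw [← (g2.map cycW).sum_eq]
    have g3 : ∀ {Gs : List (List Cir)} {Ws : List Cir}, List.Forall₂ Spl Gs Ws →
        (Ws.map cycW).sum = (Gs.flatten.map cycW).sum := by
      intro Gs Ws h
      induction h with
      | nil => rfl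
      | cons a _ ih =>
        rw [List.flatten_cons, List.map_append, List.sum_append, ← ih, List.map_cons,
          List.sum_cons, a.cyc]
    exact g3 g1
  have h6 : ((walks0 (bnd S) L F P).map cycW).sum =
      ((L.filter (fun c => !decide (c ∈ F))).map cycW).sum +
        ((ycs (gmat (bnd S) F (nodes L F)) (nodes L F) P).map
          (fun κ => cycW (walkY (bnd S) F κ))).sum := by
    unfold walks0
    rw [List.map_append, List.sum_append, List.map_map]
    rfl
  have h7 : (Hs.map (fun H => (H.map (sl (bnd S) F)).sum)).sum =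
      ((ycs (gmat (bnd S) F (nodes L F)) (nodes L F) P).map
        (fun κ => ((visF (bnd S) F κ).map (slk F)).sum)).sum := by
    have b1 : (Hs.map (fun H => (H.map (sl (bnd S) F)).sum)).sum =
        (Hs.flatten.map (sl (bnd S) F)).sum := by
      rw [List.map_flatten, List.sum_flatten, List.map_map]
      rfl
    rw [b1, (h1.map _).sum_eq]
    unfold items
    rw [List.map_append, List.sum_append, List.map_map, List.map_map]
    have b2 : ((L.filter (fun c => !decide (c ∈ F))).map (sl (bnd S) F ∘ Sum.inl)).sum = 0 := by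
      rw [List.sum_eq_zero_iff]
      intro x hx
      obtain ⟨c, -, rfl⟩ := List.mem_map.1 hx
      rfl
    rw [b2, Nat.zero_add]
    rfl
  have h8 := sum_walkY (M := gmat (bnd S) F (nodes L F)) hb2 hS hL hF hP
  have h9 := sum_cycW_split hS hL hF
  rw [h4]
  rw [h5, h6, h7] at h3
  omega

theorem partB5 : PartB5 := fun _ hb2 hb3 hb4b hb4c hb4d => partB_of hb2 hb3 hb4b hb4c hb4d

end

end Vale.Agent.P333.H196
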