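import Mathlib
import Vale.Agent.P333.G.TFit
import Vale.Agent.P333.E.Bridge
import Vale.Agent.P333.E.PF

set_option linter.all false

/-!
P333, ratio 2, package (b): circles of a minimum cover.

`sum_le_period` (A), `ov_lt_add` (F1), `ov_le_succ` and `ov_le_pred` (F2), `window_two` (the window
of length `2 N` for two or more circles).
-/

namespace Vale.Agent.P333.H196

open Vale.Agent.P333 Vale.Agent.P333.U Vale.Agent.P333.G Vale.Agent.P333.G.TF

variable {S : List (List ℕ)} {L : List (List (List ℕ))}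

/-- (A): the circles of a sub-list of the cover, all of whose strings occur in a periodic word. -/
theorem sum_le_period (hS : Sfree S) (hL : MinCover S L) {J : List (List (List ℕ))}
    (hJ : J.Nodup) (hJL : ∀ c ∈ J, c ∈ L) {Z : ℕ → ℕ} {N : ℕ} (hN : 0 < N)
    (hZ : ∀ k, Z (k + N) = Z k) (h : ∀ c ∈ J, ∀ s ∈ c, ∃ a, OccAt Z s a) :
    (J.map cycW).sum ≤ N := by
  obtain ⟨l, hl1, hl2⟩ := hJ.subperm hJL
  obtain ⟨R, hR⟩ := hl2.exists_perm_append
  exact placeLemma S L J R hS hL (hR.trans (hl1.append_right R)) Z N hN hZ h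

theorem two_le_period (hS : Sfree S) (hL : MinCover S L) {c c' : List (List ℕ)} (hc : c ∈ L)
    (hc' : c' ∈ L) (hne : c ≠ c') {Z : ℕ → ℕ} {N : ℕ} (hN : 0 < N)
    (hZ : ∀ k, Z (k + N) = Z k) (h : ∀ s ∈ c, ∃ a, OccAt Z s a) (h' : ∀ s ∈ c', ∃ a, OccAt Z s a) :
    cycW c + cycW c' ≤ N := by
  have := sum_le_period hS hL (J := [c, c']) (by simpa using hne) (by simp [hc, hc']) hN hZ
    (by simpa using ⟨h, h'⟩)
  simpa using this

/-- (F1): overlaps of strings of different circles. -/
theorem ov_lt_add (hS : Sfree S) (hL : MinCover S L) {c c' : List (List ℕ)} (hc : c ∈ L)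
    (hc' : c' ∈ L) (hne : c ≠ c') {s t : List ℕ} (hs : s ∈ c) (ht : t ∈ c') :
    ov s t < cycW c + cycW c' := by
  by_contra hcon
  push Not at hcon
  have hw := wpos hS hL hc
  have hw' := wpos hS hL hc'
  obtain ⟨a, ha⟩ := occurs hw hs
  obtain ⟨b, hb⟩ := occurs hw' ht
  have h1 := ov_le_left s t
  have h2 := ov_le_right s t
  obtain ⟨r, hr⟩ := E.conj_of_long (X := cycWord c) (Y := cycWord c') hw (cycWord_add c) hw'
    (cycWord_add c') (i := a + (s.length - ov s t)) (j := b) (l := ov s t) hcon (by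
      intro i hi
      have h3 := ov_spec s t
      have h4 : (s.drop (s.length - ov s t))[i]'(by rw [List.length_drop]; omega) =
          (t.take (ov s t))[i]'(by rw [List.length_take]; omega) := by
        simp only [h3]
      rw [List.getElem_drop, List.getElem_take] at h4
      rw [Nat.add_assoc, ← ha _ (by omega), h4, hb i (by omega)])
  have h5 := two_le_period hS hL hc hc' hne hw' (cycWord_add c') (by
    intro u hu
    obtain ⟨d, hd⟩ := occurs hw hu
    exact ⟨d + r, fun i hi => by rw [hd i hi, hr, Nat.add_right_comm]⟩)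
    (fun u hu => occurs hw' hu)
  omega

theorem nodup_of_mem (hS : Sfree S) (hL : MinCover S L) {c : List (List ℕ)} (hc : c ∈ L) :
    c.Nodup := by
  have h : L.flatten.Nodup := by
    rw [hL.perm.nodup_iff]
    refine hS.2.imp ?_
    rintro a b ⟨h1, -⟩ rfl
    exact h1 List.infix_rfl
  exact (List.nodup_flatten.1 h).1 c hc

theorem snd_eq_nxt {c : List (List ℕ)} (hc : c.Nodup) {e : List ℕ × List ℕ}
    (he : e ∈ cprs [] c) : e.2 = nxt c e.1 := by
  have h1 : ((cprs [] c).map Prod.fst).Nodup := by rw [cprs_fst]; exact hc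
  have h2 : e.1 ∈ c := by
    have := List.mem_map_of_mem (f := Prod.fst) he
    rwa [cprs_fst] at this
  have h3 := nxt_mem_cprs h2
  have h4 := List.inj_on_of_nodup_map h1 he h3 rfl
  rw [h4]

/-- The overlap is a common piece of the periodic word, in the same phase. -/
theorem occ_of_ov (hS : Sfree S) (hL : MinCover S L) {c : List (List ℕ)} (hc : c ∈ L)
    {h a : List ℕ} (hh : h ∈ c) (ha : a ∈ c) (hov : cycW c ≤ ov h a) {x : ℕ}
    (hx : OccAt (cycWord c) h x) : OccAt (cycWord c) a (x + (h.length - ov h a)) := by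
  have hw := wpos hS hL hc
  obtain ⟨b, hb⟩ := occurs hw ha
  have h1 := ov_le_left h a
  have h2 := ov_le_right h a
  have h6 : b ≡ x + (h.length - ov h a) [MOD cycW c] := by
    refine G554.phase_eq hw (cycWord_add c) (prim hS hL hc) ?_
    intro i hi
    have h3 := ov_spec h a
    have h4 : (h.drop (h.length - ov h a))[i]'(by rw [List.length_drop]; omega) =
        (a.take (ov h a))[i]'(by rw [List.length_take]; omega) := by
      simp only [h3]
    rw [List.getElem_drop, List.getElem_take] at h4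
    rw [Nat.add_assoc, ← hx _ (by omega), h4, hb i (by omega)]
  intro i hi
  rw [hb i hi]
  exact G554.per_congr (cycWord_add c) (h6.add_right i)

/-- (F2), first part. -/
theorem ov_le_nxt (hS : Sfree S) (hL : MinCover S L) {c : List (List ℕ)} (hc : c ∈ L)
    (hb : cycW c < cycO c) {h a : List ℕ} (hh : h ∈ c) (ha : a ∈ c) : ov h a ≤ ov h (nxt c h) := by
  have hC := cls_of hS hL hc (by simpa [big] using hb)
  have h0 := arc_ge hL hc hh
  by_cases hov : ov h a ≤ cycW c
  · omega
  · have h1 := occ_of_ov hS hL hc hh ha (by omega) (hC.occ h hh)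
    have h2 := ov_lt_left a (hS.1 h (mem_S hL hc hh))
    have h3 := hC.next h a hh ha _ h1 (by omega)
    have h4 := ov_lt_left (nxt c h) (hS.1 h (mem_S hL hc hh))
    omega

/-- (F2): for a big circle, the overlap with the successor is the longest overlap. -/
theorem ov_le_succ (hS : Sfree S) (hL : MinCover S L) {c : List (List ℕ)} (hc : c ∈ L)
    (hb : cycW c < cycO c) {e : List ℕ × List ℕ} (he : e ∈ cprs [] c) {a : List ℕ} (ha : a ∈ c) :
    ov e.1 a ≤ ov e.1 e.2 := by
  have h2 : e.1 ∈ c := by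
    have := List.mem_map_of_mem (f := Prod.fst) he
    rwa [cprs_fst] at this
  rw [snd_eq_nxt (nodup_of_mem hS hL hc) he]
  exact ov_le_nxt hS hL hc hb h2 ha

/-- (F2): for a big circle, the overlap with the predecessor is the longest overlap. -/
theorem ov_le_pred (hS : Sfree S) (hL : MinCover S L) {c : List (List ℕ)} (hc : c ∈ L)
    (hb : cycW c < cycO c) {e : List ℕ × List ℕ} (he : e ∈ cprs [] c) {h : List ℕ} (hh : h ∈ c) :
    ov h e.2 ≤ ov e.1 e.2 := by
  have hC := cls_of hS hL hc (by simpa [big] using hb)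
  have hg : e.1 ∈ c := by
    have := List.mem_map_of_mem (f := Prod.fst) he
    rwa [cprs_fst] at this
  have heq := snd_eq_nxt (nodup_of_mem hS hL hc) he
  have ha : e.2 ∈ c := by rw [heq]; exact hC.nxF _ hg
  set g := e.1 with hgdef
  set a := e.2 with hadef
  have h0 := arc_ge hL hc hg
  rw [← heq] at h0
  by_cases hov : ov h a ≤ cycW c
  · omega
  -- an occurrence of `h`, far to the right
  have hw := wpos hS hL hc
  have hx0 := hC.occ h hh
  have hx : OccAt (cycWord c) h (pq c (c.idxOf h) + (g.length + 1) * cycW c) := by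
    intro i hi
    rw [hx0 i hi, show pq c (c.idxOf h) + (g.length + 1) * cycW c + i =
      pq c (c.idxOf h) + i + (g.length + 1) * cycW c by ring, cycWord_add_mul]
  have hbig : g.length + 1 ≤ (g.length + 1) * cycW c := Nat.le_mul_of_pos_right _ hw
  generalize hX : pq c (c.idxOf h) + (g.length + 1) * cycW c = x at hx
  have hxg : g.length < x := by omega
  have h1 := occ_of_ov hS hL hc hh ha (by omega) hx
  have hlh := ov_lt_left a (hS.1 h (mem_S hL hc hh))
  have hlg := ov_lt_left a (hS.1 g (mem_S hL hc hg))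
  -- the occurrence of `g` before this occurrence of `a`
  have hy : OccAt (cycWord c) g (x + (h.length - ov h a) - (g.length - ov g a)) := by
    have h2 := hC.nxo g hg
    simp only [← heq] at h2
    have h3 : pq c (c.idxOf g) + (g.length - ov g a) ≡ x + (h.length - ov h a) [MOD cycW c] :=
      hC.occ_modEq ha h2 h1
    refine hC.occ_shift (hC.occ g hg) ?_
    have h4 : pq c (c.idxOf g) + (g.length - ov g a) ≡
        (x + (h.length - ov h a) - (g.length - ov g a)) + (g.length - ov g a) [MOD cycW c] := by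
      rwa [Nat.sub_add_cancel (by omega)]
    exact Nat.ModEq.add_right_cancel' _ h4
  by_contra hcon
  -- the end of `h` is after the end of `g`
  have h5 : x ≤ x + (h.length - ov h a) - (g.length - ov g a) ∨
      x + (h.length - ov h a) - (g.length - ov g a) < x := by omega
  rcases h5 with h5 | h5
  · have h6 : g <:+: h := G554.Oc.inside hx hy h5 (by omega)
    have h7 := hC.nest g h hg hh h6
    rw [h7] at hcon
    exact hcon le_rfl
  · have h6 := hC.next' hg hh hy hx h5
    simp only [← heq] at h6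
    omega

/-- Two or more circles all of whose strings occur in a word of period `N`: all strings occur in
one window of length `2 N`. -/
theorem window_two (hS : Sfree S) (hL : MinCover S L) {J : List (List (List ℕ))}
    (hJL : ∀ c ∈ J, c ∈ L) (h2 : ∃ c ∈ J, ∃ c' ∈ J, c ≠ c') {Z : ℕ → ℕ} {N : ℕ} (hN : 0 < N)
    (hZ : ∀ k, Z (k + N) = Z k) (h : ∀ c ∈ J, ∀ s ∈ c, ∃ a, OccAt Z s a) :
    ∃ p, p < N ∧ ∀ c ∈ J, ∀ s ∈ c, ∃ b, p ≤ b ∧ b + s.length ≤ p + 2 * N ∧ OccAt Z s b := by
  classical
  have hex : ∀ s, (∃ c ∈ J, s ∈ c) → ∃ a, a < N ∧ OccAt Z s a := by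
    rintro s ⟨c, hc, hs⟩
    obtain ⟨a, ha⟩ := h c hc s hs
    exact ⟨a % N, Nat.mod_lt _ hN, OccAt.mod hZ ha⟩
  choose! pos hpos using hex
  -- the cyclic distance
  let ds : List ℕ → List ℕ → ℕ := fun s t => if pos s < pos t then pos t - pos s else
    pos t + N - pos s
  have hP : ∃ d, ∃ c ∈ J, ∃ c' ∈ J, c ≠ c' ∧ ∃ s ∈ c, ∃ t ∈ c', ds s t = d := by
    obtain ⟨c, hc, c', hc', hne⟩ := h2
    obtain ⟨s, hs⟩ := List.exists_mem_of_ne_nil c (hL.ne c (hJL c hc))
    obtain ⟨t, ht⟩ := List.exists_mem_of_ne_nil c' (hL.ne c' (hJL c' hc'))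
    exact ⟨ds s t, c, hc, c', hc', hne, s, hs, t, ht, rfl⟩
  obtain ⟨c, hc, c', hc', hne, s, hs, t, ht, hd⟩ := Nat.find_spec hP
  have hmin : ∀ c1 ∈ J, ∀ c2 ∈ J, c1 ≠ c2 → ∀ s1 ∈ c1, ∀ t1 ∈ c2, ds s t ≤ ds s1 t1 := by
    intro c1 h1 c2 h3 h4 s1 h5 t1 h6
    rw [hd]
    exact Nat.find_min' hP ⟨c1, h1, c2, h3, h4, s1, h5, t1, h6, rfl⟩
  obtain ⟨hps, hos⟩ := hpos s ⟨c, hc, hs⟩
  obtain ⟨hpt, hot⟩ := hpos t ⟨c', hc', ht⟩
  have hsS := mem_S hL (hJL c hc) hs
  have htS := mem_S hL (hJL c' hc') ht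
  have hov := ov_lt_add hS hL (hJL c hc) (hJL c' hc') hne hs ht
  have hww := two_le_period hS hL (hJL c hc) (hJL c' hc') hne hN hZ (h c hc) (h c' hc')
  -- the last start
  obtain ⟨a, ha1, ha2, ha3, ha4⟩ : ∃ a, OccAt Z s a ∧ pos t ≤ a ∧ a < pos t + N ∧
      a + ds s t = pos t + N := by
    by_cases hlt : pos s < pos t
    · refine ⟨pos s + N, hos.add hZ, by omega, by omega, ?_⟩
      simp only [ds, if_pos hlt]
      omega
    · refine ⟨pos s, hos, by omega, by omega, ?_⟩
      simp only [ds, if_neg hlt]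
      omega
  have hend : a + s.length ≤ pos t + 2 * N := by
    have h3 := ha1.gap_le (hot.add hZ) ha3 (by
      rcases sfree_eq_or hS htS hsS with h5 | h5
      · exact Or.inl h5
      · exact Or.inr h5)
    omega
  refine ⟨pos t, hpt, fun c1 h1 u hu => ?_⟩
  obtain ⟨hpu, hou⟩ := hpos u ⟨c1, h1, hu⟩
  have huS := mem_S hL (hJL c1 h1) hu
  obtain ⟨b, hb1, hb2, hb3, hb4⟩ : ∃ b, OccAt Z u b ∧ pos t ≤ b ∧ b < pos t + N ∧
      (pos t < b → ds u t + b = pos t + N) := by
    by_cases hlt : pos u < pos t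
    · refine ⟨pos u + N, hou.add hZ, by omega, by omega, fun _ => ?_⟩
      simp only [ds, if_pos hlt]
      omega
    · refine ⟨pos u, hou, by omega, by omega, fun h' => ?_⟩
      simp only [ds, if_neg hlt]
      omega
  refine ⟨b, hb2, ?_, hb1⟩
  have hba : b ≤ a := by
    by_contra hcon
    push Not at hcon
    have h3 := hb4 (by omega)
    by_cases hcc : c1 = c
    · have h4 := hmin c1 h1 c' hc' (by rw [hcc]; exact hne) u hu t ht
      omega
    · have h4 := hmin c hc c1 h1 (fun h' => hcc h'.symm) s hs u hu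
      have h5 : ds s u + a ≤ b := by
        have h6 : ds s t = if pos s < pos t then pos t - pos s else pos t + N - pos s := rfl
        have h7 : ds u t = if pos u < pos t then pos t - pos u else pos t + N - pos u := rfl
        have h8 : ds s u = if pos s < pos u then pos u - pos s else pos u + N - pos s := rfl
        split_ifs at h6 h7 h8 <;> omega
      omega
  by_contra hcon
  have h3 : s <:+: u := G554.Oc.inside hb1 ha1 hba (by omega)
  have h4 := eq_of_sub hS hsS huS h3
  rw [h4] at hend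
  omega

end Vale.Agent.P333.H196
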