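import Mathlib

set_option linter.all false

/-!
P333, ratio 2, package (a): words.

`W : ℤ → α` is a periodic two-sided word with least period `N`.  `Occ W s i`: the string `s` occurs at
position `i`.

Main theorem: `cut_window` (both orders of the alphabet are used).
-/

namespace Vale.Agent.P333.H196

open Finset

/-- The string `s` occurs in `W` at position `i`. -/
def Occ {α : Type*} (W : ℤ → α) (s : List α) (i : ℤ) : Prop :=
  ∀ j (h : j < s.length), W (i + j) = s[j]

section

variable {α : Type*} {W : ℤ → α} {N : ℤ}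

lemma per_mul (per : ∀ i, W (i + N) = W i) (z i : ℤ) : W (i + z * N) = W i := by
  induction z using Int.induction_on generalizing i with
  | zero => simp
  | succ n ih =>
    have h := ih (i + N)
    rw [show i + ((n : ℤ) + 1) * N = i + N + n * N by ring, h, per]
  | pred n ih =>
    have h := per (i + (-(n : ℤ) - 1) * N)
    rw [← h, ← ih i]
    congr 1
    ring

lemma Occ.shift (per : ∀ i, W (i + N) = W i) {s : List α} {i : ℤ} (h : Occ W s i) (z : ℤ) :
    Occ W s (i + z * N) := by
  intro j hj
  rw [show i + z * N + (j : ℤ) = i + j + z * N by ring, per_mul per, h j hj]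

/-- Every position can be shifted into a given period. -/
lemma exists_shift (hN : 0 < N) (p i : ℤ) : ∃ z : ℤ, p ≤ i + z * N ∧ i + z * N < p + N := by
  refine ⟨-((i - p) / N), ?_, ?_⟩
  · have := Int.emod_nonneg (i - p) hN.ne'
    have h2 := Int.emod_add_mul_ediv (i - p) N
    nlinarith
  · have := Int.emod_lt_of_pos (i - p) hN
    have h2 := Int.emod_add_mul_ediv (i - p) N
    nlinarith

end

section order

variable {α : Type*} [LinearOrder α] {W : ℤ → α} {N : ℤ}

/-- The rest of the word from `q` on is smaller than the rest from `r` on. -/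
def Lt (W : ℤ → α) (q r : ℤ) : Prop :=
  ∃ t : ℕ, (∀ u : ℕ, u < t → W (q + u) = W (r + u)) ∧ W (q + t) < W (r + t)

/-- There is a position from which the rest of the word is least. -/
lemma exists_least (hN : 0 < N) (per : ∀ i, W (i + N) = W i) : ∃ p : ℤ, ∀ q, ¬ Lt W q p := by
  classical
  obtain ⟨p, -, hp⟩ := Finset.exists_min_image (Finset.Ico (0 : ℤ) N)
    (fun q => (toLex (fun t : ℕ => W (q + t)) : Lex (ℕ → α)))
    ⟨0, by simp [hN]⟩
  refine ⟨p, fun q hq => ?_⟩
  obtain ⟨z, hz1, hz2⟩ := exists_shift hN 0 q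
  have h := hp (q + z * N) (by simp; omega)
  obtain ⟨t, ht1, ht2⟩ := hq
  have e : (fun t : ℕ => W (q + z * N + t)) = fun t : ℕ => W (q + t) := by
    funext t
    rw [show q + z * N + (t : ℤ) = q + t + z * N by ring, per_mul per]
  rw [e] at h
  refine absurd h (not_le.2 ?_)
  exact ⟨t, fun u hu => ht1 u hu, ht2⟩

/-- The least rotation of a primitive word has no border. -/
lemma no_border (hN : 0 < N) (per : ∀ i, W (i + N) = W i)
    (prim : ∀ m, 0 < m → m < N → ∃ i, W (i + m) ≠ W i) {p : ℤ} (hp : ∀ q, ¬ Lt W q p)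
    {m : ℤ} (m0 : 0 < m) (mN : m < N) (hb : ∀ u : ℤ, 0 ≤ u → u < m → W (p + u) = W (p + N - m + u)) :
    False := by
  -- all letters from `p` on agree with those from `p + m` on
  have key : ∀ t : ℕ, W (p + m + t) = W (p + t) := by
    intro t
    induction t using Nat.strong_induction_on with
    | _ t ih =>
      rcases lt_trichotomy (W (p + m + t)) (W (p + t)) with h | h | h
      · exact absurd ⟨t, fun u hu => ih u hu, h⟩ (hp (p + m))
      · exact h
      · exfalso
        -- compare the rest from `p + N - m` with the rest from `p`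
        apply hp (p + N - m)
        refine ⟨m.toNat + t, fun u hu => ?_, ?_⟩
        · by_cases hum : (u : ℤ) < m
          · exact (hb u (by positivity) hum).symm
          · have hu' : ∃ v : ℕ, u = m.toNat + v ∧ v < t := ⟨u - m.toNat, by omega, by omega⟩
            obtain ⟨v, rfl, hv⟩ := hu'
            have e1 : p + N - m + ((m.toNat + v : ℕ) : ℤ) = p + v + N := by
              push_cast; rw [Int.toNat_of_nonneg m0.le]; ring
            have e2 : p + ((m.toNat + v : ℕ) : ℤ) = p + m + v := by
              push_cast; rw [Int.toNat_of_nonneg m0.le]; ring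
            rw [e1, e2, per, ih v hv]
        · have e1 : p + N - m + ((m.toNat + t : ℕ) : ℤ) = p + t + N := by
            push_cast; rw [Int.toNat_of_nonneg m0.le]; ring
          have e2 : p + ((m.toNat + t : ℕ) : ℤ) = p + m + t := by
            push_cast; rw [Int.toNat_of_nonneg m0.le]; ring
          rw [e1, e2, per]
          exact h
  obtain ⟨i, hi⟩ := prim m m0 mN
  obtain ⟨z, hz1, hz2⟩ := exists_shift hN p i
  apply hi
  have h := key (i + z * N - p).toNat
  have e : ((i + z * N - p).toNat : ℤ) = i + z * N - p := Int.toNat_of_nonneg (by omega)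
  rw [e] at h
  rw [show p + m + (i + z * N - p) = i + m + z * N by ring, per_mul per,
    show p + (i + z * N - p) = i + z * N by ring, per_mul per] at h
  exact h

/-- A string with two essentially different occurrences has one inside of the period which starts at
`p`. -/
lemma two_occ (hN : 0 < N) (per : ∀ i, W (i + N) = W i)
    (prim : ∀ m, 0 < m → m < N → ∃ i, W (i + m) ≠ W i) {p : ℤ} (hp : ∀ q, ¬ Lt W q p)
    {s : List α} {i j : ℤ} (hi : Occ W s i) (hj : Occ W s j) (hij : ¬ N ∣ (j - i)) :
    ∃ r, p ≤ r ∧ r + s.length ≤ p + N ∧ Occ W s r := by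
  -- reduce to positions in `[p, p + N)`
  obtain ⟨z, hz1, hz2⟩ := exists_shift hN p i
  obtain ⟨z', hz1', hz2'⟩ := exists_shift hN p j
  have hi' := hi.shift per z
  have hj' := hj.shift per z'
  have hne : i + z * N ≠ j + z' * N := by
    intro h
    exact hij ⟨z - z', by linarith⟩
  generalize i + z * N = a at *
  generalize j + z' * N = b at *
  clear hi hj hij
  -- the case `a < b`
  have main : ∀ a b : ℤ, p ≤ a → b < p + N → a < b → Occ W s a → Occ W s b →
      a + s.length ≤ p + N ∨ b + s.length ≤ p + N := by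
    intro a b ha hb hab oa ob
    by_contra hcon
    push Not at hcon
    obtain ⟨h1, h2⟩ := hcon
    refine no_border hN per prim hp (m := b - a) (by omega) (by omega) fun u hu0 hu1 => ?_
    -- the offset
    have hk : ((p + N - b + u).toNat : ℤ) = p + N - b + u := Int.toNat_of_nonneg (by omega)
    have hk' : (p + N - b + u).toNat < s.length := by omega
    have e1 := oa _ hk'
    have e2 := ob _ hk'
    rw [hk] at e1 e2
    rw [← e2] at e1
    rw [show p + N - (b - a) + u = a + (p + N - b + u) by ring, e1,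
      show b + (p + N - b + u) = p + u + N by ring, per]
  rcases lt_or_gt_of_ne hne with h | h
  · rcases main a b hz1 hz2' h hi' hj' with h' | h'
    · exact ⟨a, hz1, h', hi'⟩
    · exact ⟨b, hz1', h', hj'⟩
  · rcases main b a hz1' hz2 h hj' hi' with h' | h'
    · exact ⟨b, hz1', h', hj'⟩
    · exact ⟨a, hz1, h', hi'⟩

/-- Comparison of the rests at the ends of a run of period `w`; `i0` is the first violation. -/
lemma run_lt {w q i0 : ℤ} (h0 : q ≤ i0) (hrun : ∀ i, q ≤ i → i < i0 → W (i + w) = W i)
    (hlt : W i0 < W (i0 + w)) : Lt W q (q + w) := by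
  refine ⟨(i0 - q).toNat, fun u hu => ?_, ?_⟩
  · have := hrun (q + u) (by omega) (by omega)
    rw [← this]
    congr 1
    ring
  · rw [Int.toNat_of_nonneg (by omega)]
    rw [show q + (i0 - q) = i0 by ring, show q + w + (i0 - q) = i0 + w by ring]
    exact hlt

lemma run_gt {w q i0 : ℤ} (h0 : q ≤ i0) (hrun : ∀ i, q ≤ i → i < i0 → W (i + w) = W i)
    (hlt : W (i0 + w) < W i0) : Lt W (q + w) q := by
  refine ⟨(i0 - q).toNat, fun u hu => ?_, ?_⟩
  · have := hrun (q + u) (by omega) (by omega)
    rw [← this]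
    congr 1
    ring
  · rw [Int.toNat_of_nonneg (by omega)]
    rw [show q + (i0 - q) = i0 by ring, show q + w + (i0 - q) = i0 + w by ring]
    exact hlt

lemma Lt.congr_right (per : ∀ i, W (i + N) = W i) {q r : ℤ} (h : Lt W q r) (z : ℤ) :
    Lt W q (r + z * N) := by
  obtain ⟨t, h1, h2⟩ := h
  refine ⟨t, fun u hu => ?_, ?_⟩
  · rw [show r + z * N + (u : ℤ) = r + u + z * N by ring, per_mul per, h1 u hu]
  · rw [show r + z * N + (t : ℤ) = r + t + z * N by ring, per_mul per]
    exact h2

/-- The window obtained by cutting at the least rotation. `k` is of left type if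
`W (i0 k) < W (i0 k + w k)`. -/
theorem window_one {ι : Type*} [Fintype ι] (hN : 0 < N) (per : ∀ i, W (i + N) = W i)
    (prim : ∀ m, 0 < m → m < N → ∃ i, W (i + m) ≠ W i)
    (w δ ε X Y i0 : ι → ℤ) (hw : ∀ k, w k < N) (hw0 : ∀ k, 0 < w k)
    (hδ : ∀ k, δ k ≤ w k) (hδ0 : ∀ k, 0 ≤ δ k) (hε : ∀ k, ε k ≤ w k) (hε0 : ∀ k, 0 ≤ ε k)
    (h0 : ∀ k, X k ≤ i0 k) (hY : ∀ k, Y k ≤ i0 k + w k)
    (hrun : ∀ k i, X k ≤ i → i < i0 k → W (i + w k) = W i)
    (hviol : ∀ k, W (i0 k + w k) ≠ W (i0 k))
    (S : List α → Prop)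
    (hS : ∀ s, S s → (∃ i j, Occ W s i ∧ Occ W s j ∧ ¬ N ∣ (j - i)) ∨
      ∃ k i, Occ W s i ∧ X k + δ k ≤ i ∧ i + s.length ≤ Y k - ε k) :
    ∃ P Q : ℤ, Q - P ≤ N + ∑ k, (if W (i0 k) < W (i0 k + w k) then w k - δ k else w k - ε k) ∧
      ∀ s, S s → ∃ r, P ≤ r ∧ r + s.length ≤ Q ∧ Occ W s r := by
  classical
  obtain ⟨p, hp⟩ := exists_least hN per
  set L : ℤ := ∑ k, (if W (i0 k) < W (i0 k + w k) then w k - δ k else 0) with hL
  set R : ℤ := ∑ k, (if W (i0 k) < W (i0 k + w k) then 0 else w k - ε k) with hR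
  have hLk : ∀ k, W (i0 k) < W (i0 k + w k) → w k - δ k ≤ L := by
    intro k hk
    have := Finset.single_le_sum
      (f := fun k => if W (i0 k) < W (i0 k + w k) then w k - δ k else 0)
      (fun j _ => by
        show (0 : ℤ) ≤ if W (i0 j) < W (i0 j + w j) then w j - δ j else 0
        split_ifs
        · linarith [hδ j]
        · exact le_rfl) (Finset.mem_univ k)
    simp only [if_pos hk] at this
    exact this
  have hRk : ∀ k, ¬ W (i0 k) < W (i0 k + w k) → w k - ε k ≤ R := by
    intro k hk
    have := Finset.single_le_sum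
      (f := fun k => if W (i0 k) < W (i0 k + w k) then 0 else w k - ε k)
      (fun j _ => by
        show (0 : ℤ) ≤ if W (i0 j) < W (i0 j + w j) then 0 else w j - ε j
        split_ifs
        · exact le_rfl
        · linarith [hε j]) (Finset.mem_univ k)
    simp only [if_neg hk] at this
    exact this
  have hL0 : 0 ≤ L := Finset.sum_nonneg fun j _ => by
    show (0 : ℤ) ≤ if W (i0 j) < W (i0 j + w j) then w j - δ j else 0
    split_ifs
    · linarith [hδ j]
    · exact le_rfl
  have hR0 : 0 ≤ R := Finset.sum_nonneg fun j _ => by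
    show (0 : ℤ) ≤ if W (i0 j) < W (i0 j + w j) then 0 else w j - ε j
    split_ifs
    · exact le_rfl
    · linarith [hε j]
  refine ⟨p - L, p + N + R, ?_, fun s hs => ?_⟩
  · have : L + R = ∑ k, (if W (i0 k) < W (i0 k + w k) then w k - δ k else w k - ε k) := by
      rw [hL, hR, ← Finset.sum_add_distrib]
      refine Finset.sum_congr rfl fun k _ => ?_
      split_ifs <;> ring
    rw [← this]
    linarith
  rcases hS s hs with ⟨i, j, hi, hj, hij⟩ | ⟨k, i, hi, h1, h2⟩
  · obtain ⟨r, hr1, hr2, hr3⟩ := two_occ hN per prim hp hi hj hij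
    exact ⟨r, by linarith, by linarith, hr3⟩
  · obtain ⟨z, hz1, hz2⟩ := exists_shift hN p i
    have hi' := hi.shift per z
    by_cases hin : i + z * N + s.length ≤ p + N
    · exact ⟨i + z * N, by linarith, by linarith, hi'⟩
    push Not at hin
    -- the cut `t ≡ p`, strictly inside of the occurrence at `i`
    obtain ⟨t, ht⟩ : ∃ t, t = p + N - z * N := ⟨_, rfl⟩
    have ht1 : i < t := by rw [ht]; linarith
    have ht2 : t < i + s.length := by rw [ht]; linarith
    have hXt : X k < t := by linarith [hδ0 k]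
    have htQ : t ≤ i0 k + w k := by linarith [hY k, hε0 k]
    rcases lt_or_gt_of_ne (hviol k) with hv | hv
    · -- right type
      have hnl : ¬ W (i0 k) < W (i0 k + w k) := not_lt.2 hv.le
      have hti : i0 k < t := by
        by_contra hcon
        push Not at hcon
        have h := run_gt (W := W) hcon (fun i' hi1 hi2 => hrun k i' (by linarith) hi2) hv
        have h3 := h.congr_right per (z - 1)
        rw [show t + (z - 1) * N = p by rw [ht]; ring] at h3
        exact hp _ h3
      refine ⟨i + z * N, by linarith, ?_, hi'⟩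
      have := hRk k hnl
      have h5 : t + z * N = p + N := by rw [ht]; ring
      have := hY k
      linarith
    · -- left type
      have hkey : ∀ t', t' = t ∨ t' = t + N → X k + w k ≤ t' → t' ≤ i0 k + w k → False := by
        intro t' htt ha hb
        have h := run_lt (W := W) (w := w k) (q := t' - w k) (i0 := i0 k) (by linarith)
          (fun i' hi1 hi2 => hrun k i' (by linarith) hi2) hv
        rw [sub_add_cancel] at h
        rcases htt with rfl | rfl
        · have h3 := h.congr_right per (z - 1)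
          rw [show t' + (z - 1) * N = p by rw [ht]; ring] at h3
          exact hp _ h3
        · have h3 := h.congr_right per (z - 2)
          rw [show t + N + (z - 2) * N = p by rw [ht]; ring] at h3
          exact hp _ h3
      have hta : t < X k + w k := by
        by_contra hcon
        push Not at hcon
        exact hkey t (Or.inl rfl) hcon htQ
      have htb : i0 k + w k < t + N := by
        by_contra hcon
        push Not at hcon
        exact hkey (t + N) (Or.inr rfl) (by linarith [hw k]) hcon
      refine ⟨i + (z - 1) * N, ?_, ?_, hi.shift per (z - 1)⟩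
      · have := hLk k hv
        have h5 : t + (z - 1) * N = p := by rw [ht]; ring
        linarith
      · have h5 : t + (z - 1) * N = p := by rw [ht]; ring
        have := hY k
        have := hε0 k
        nlinarith

end order

/-- The first violation of the period `w` after `X`. -/
lemma exists_first {α : Type*} {W : ℤ → α} {N : ℤ} (hN : 0 < N) (per : ∀ i, W (i + N) = W i)
    {w : ℤ} (hw : ∃ i, W (i + w) ≠ W i) (X : ℤ) :
    ∃ i0, X ≤ i0 ∧ (∀ i, X ≤ i → i < i0 → W (i + w) = W i) ∧ W (i0 + w) ≠ W i0 := by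
  classical
  obtain ⟨i, hi⟩ := hw
  obtain ⟨z, hz1, hz2⟩ := exists_shift hN X i
  have hex : ∃ n : ℕ, W (X + n + w) ≠ W (X + n) := by
    refine ⟨(i + z * N - X).toNat, ?_⟩
    rw [Int.toNat_of_nonneg (by omega)]
    rw [show X + (i + z * N - X) + w = i + w + z * N by ring, per_mul per,
      show X + (i + z * N - X) = i + z * N by ring, per_mul per]
    exact hi
  refine ⟨X + Nat.find hex, by omega, fun j hj1 hj2 => ?_, Nat.find_spec hex⟩
  have h := Nat.find_min hex (m := (j - X).toNat) (by omega)
  rw [Int.toNat_of_nonneg (by omega), show X + (j - X) = j by ring] at h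
  exact not_not.1 h

/-- **The cut lemma.** `W` has least period `N`; for every `k` the word has period `w k < N` on
`[X k, Y k)`; every string of `S` has two occurrences at positions which differ modulo `N`, or an
occurrence inside of `[X k + δ k, Y k - ε k)` for some `k`. Then all strings of `S` occur inside of a
window of length at most `N + ∑ (w k - (δ k + ε k) / 2)`. -/
theorem cut_window {α : Type*} [LinearOrder α] {ι : Type*} [Fintype ι] {W : ℤ → α} {N : ℤ}
    (hN : 0 < N) (per : ∀ i, W (i + N) = W i)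
    (prim : ∀ m, 0 < m → m < N → ∃ i, W (i + m) ≠ W i)
    (w δ ε X Y : ι → ℤ) (hw : ∀ k, w k < N) (hw0 : ∀ k, 0 < w k)
    (hδ : ∀ k, δ k ≤ w k) (hδ0 : ∀ k, 0 ≤ δ k) (hε : ∀ k, ε k ≤ w k) (hε0 : ∀ k, 0 ≤ ε k)
    (hrun : ∀ k i, X k ≤ i → i + w k < Y k → W (i + w k) = W i)
    (S : List α → Prop)
    (hS : ∀ s, S s → (∃ i j, Occ W s i ∧ Occ W s j ∧ ¬ N ∣ (j - i)) ∨
      ∃ k i, Occ W s i ∧ X k + δ k ≤ i ∧ i + s.length ≤ Y k - ε k) :
    ∃ P Q : ℤ, 2 * (Q - P) ≤ 2 * N + ∑ k, (2 * w k - δ k - ε k) ∧
      ∀ s, S s → ∃ r, P ≤ r ∧ r + s.length ≤ Q ∧ Occ W s r := by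
  classical
  choose i0 h0 hr hv using fun k => exists_first hN per (prim (w k) (hw0 k) (hw k)) (X k)
  have hY : ∀ k, Y k ≤ i0 k + w k := by
    intro k
    by_contra hcon
    push Not at hcon
    exact hv k (hrun k (i0 k) (h0 k) hcon)
  obtain ⟨P, Q, h1, h2⟩ := window_one hN per prim w δ ε X Y i0 hw hw0 hδ hδ0 hε hε0 h0 hY hr hv S hS
  obtain ⟨P', Q', h1', h2'⟩ := window_one (α := αᵒᵈ) (W := fun i => OrderDual.toDual (W i)) hN
    (fun i => congrArg _ (per i))
    (fun m m0 mN => (prim m m0 mN).imp fun i hi h => hi (OrderDual.toDual.injective h))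
    w δ ε X Y i0 hw hw0 hδ hδ0 hε hε0 h0 hY (fun k i ha hb => congrArg _ (hr k i ha hb))
    (fun k h => hv k (OrderDual.toDual.injective h)) S hS
  have hsum : ∑ k, (if W (i0 k) < W (i0 k + w k) then w k - δ k else w k - ε k) +
      ∑ k, (if (OrderDual.toDual (W (i0 k)) : αᵒᵈ) < OrderDual.toDual (W (i0 k + w k)) then
        w k - δ k else w k - ε k) = ∑ k, (2 * w k - δ k - ε k) := by
    rw [← Finset.sum_add_distrib]
    refine Finset.sum_congr rfl fun k _ => ?_
    rcases lt_or_gt_of_ne (hv k) with h | h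
    · rw [if_neg (not_lt.2 h.le), if_pos (OrderDual.toDual_lt_toDual.2 h)]; ring
    · rw [if_pos h, if_neg fun h' => lt_asymm h (OrderDual.toDual_lt_toDual.1 h')]; ring
  rcases le_total (Q - P) (Q' - P') with h | h
  · exact ⟨P, Q, by linarith, h2⟩
  · exact ⟨P', Q', by linarith, fun s hs => h2' s hs⟩

end Vale.Agent.P333.H196
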