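import Mathlib
import Vale.Agent.P333.H196.B5
import Vale.Agent.P333.H705.PartB2
import Vale.Agent.P333.H208.B4
import Vale.Agent.P333.H70.B3

set_option linter.all false

/-!
P333, ratio `2`: the bound for the output, up to the case of one circle (`PartB4b`).
-/

namespace Vale.Agent.P333.H196

open Vale.Agent.P333.Y

/-- `PartB` from `PartB4b`. -/
theorem partB_of_4b (h : PartB4b) : PartB :=
  partB_of Vale.Agent.P333.H705.partB2 Vale.Agent.P333.H70.partB3 h partB4c partB4d

end Vale.Agent.P333.H196
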